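import Vale.Agent.P309.Main

/-!
P309: learners with quadratic memory need order `d log (1 / ε)` noiseless Gaussian samples.
-/

open Vale.Agent.P309

theorem Vale.Agent.Results.P309.A_full.result :
    ∀ A : ℝ, 0 < A → ∃ c : ℝ, 0 < c ∧ ∃ d₀ : ℕ, ∀ d : ℕ, d₀ ≤ d → ∀ ε : ℝ, 0 < ε →
      ∀ M N T : ℕ, (M : ℝ) ≤ A * (d : ℝ) ^ 2 → N ≤ 2 ^ M → ∀ L : Learner d N,
        (2 / 3 : ENNReal) ≤ L.success T ε → c * (d : ℝ) * Real.log (1 / ε) ≤ (T : ℝ) :=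
  fun A _ => main_real A
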